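import Vale.Agent.P243.Statement
import Vale.Agent.P243.Bridge
import Vale.Agent.P243.HalfCover
import Vale.Agent.P243.HalfCostB

namespace Vale.Agent.Results.P243.HalfArea

open _root_.P243.Bang

theorem result :
    ¬ HalfAreaConjecture (EuclideanSpace ℝ (Fin 3)) ∧
    ¬ CylinderCoveringConjecture (EuclideanSpace ℝ (Fin 3)) ∧
    cConst (EuclideanSpace ℝ (Fin 3)) < 1 / 2 ∧
    rConst (EuclideanSpace ℝ (Fin 3)) < 1 / 2 := by
  have hN : 0 < 2 * 10 ^ 20 := by norm_num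
  have hNh : ((2 * 10 ^ 20 : ℕ) : ℝ) * (1 / 10 ^ 20 : ℝ) = 2 := by norm_num
  have he : (0 : ℝ) < 1 / 100000 := by norm_num
  have hh : (0 : ℝ) < 1 / 10 ^ 20 := by norm_num
  have hh1 : (1 / 10 ^ 20 : ℝ) ≤ (1 / 100000) ^ 3 := by norm_num
  obtain ⟨m, C, hC, h1, h2, h3⟩ := _root_.P243.exists_bang
    (_root_.P243.Half.covA_tetra (2 * 10 ^ 20) hN hNh he le_rfl hh hh1)
    (_root_.P243.Half.cost_estimateB (2 * 10 ^ 20) hNh he le_rfl hh hh1)
  refine ⟨fun h => not_lt.2 (h _ m C hC) h1, fun h => not_lt.2 (h _ m C hC) h3, ?_, ?_⟩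
  · exact (sInf_le ⟨_, m, C, hC, rfl⟩ : cConst _ ≤ _).trans_lt h2
  · exact (sInf_le ⟨_, m, C, hC, rfl⟩ : rConst _ ≤ _).trans_lt h3

end Vale.Agent.Results.P243.HalfArea
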