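import Vale.Agent.P243.Literal
import Vale.Agent.P243.LiteralProof

open MeasureTheory

namespace Vale.Agent.Results.P243.LiteralHalfArea

open _root_.P243

theorem result :
    ∃ c : ENNReal, c < 1 / 2 ∧ Literal.CheapCovering (EuclideanSpace ℝ (Fin 3)) c := by
  obtain ⟨c, hc, m, C, hC, hsum⟩ := Literal.half_cover
  refine ⟨_, Literal.half_lt hc, tetra, isConvexBody_tetra.isCompact, isConvexBody_tetra.convex,
    isConvexBody_tetra.nonempty_interior, m, fun i => (C i).axis, fun i => (C i).base,
    fun i => ⟨(C i).norm_axis, (C i).measurable_base, lt_top_iff_ne_top.2 (C i).finite_base⟩,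
    fun x hx => ?_, fun v hv => Literal.sum_le C hsum v hv⟩
  obtain ⟨i, b, hb, t, h⟩ := Set.mem_iUnion.1 (hC hx)
  exact ⟨i, b, hb, t, h⟩

end Vale.Agent.Results.P243.LiteralHalfArea
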